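import Vale.Agent.Lib.P154Q.Child.Data

set_option linter.defProp false

/-!
Kernel checks of the polynomial bounds on the channel image.
-/

namespace Vale.Agent.Lib.P154Q.Child

open Vale.Agent.Lib.P154M Vale.Agent.Lib.P154Q
open Vale.Agent.Lib.Common.Kron Vale.Agent.Lib.Common.Kron.PE

set_option maxRecDepth 100000 in
def hUD_0 : checkT (eUp NcC gdC 2 2 0 (-1) 0 UDL chX1 chX2 chX3) regB [66, 66, 1, 1] (.node 0 .drop (.node 0 (.node 0 .drop (.node 0 .drop (.node 1 .drop (.node 0 .drop .leaf)))) .leaf)) (rootQ.lowH 1) = true := by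
  decide +kernel

set_option maxRecDepth 100000 in
def hUD_1 : checkT (eUp NcC gdC 2 2 0 (-1) 0 UDL chX1 chX2 chX3) regB [66, 66, 1, 1] .drop ((rootQ.upH 1).lowH 0) = true := by
  decide +kernel

set_option maxRecDepth 100000 in
def hUD_2 : checkT (eUp NcC gdC 2 2 0 (-1) 0 UDL chX1 chX2 chX3) regB [66, 66, 1, 1] .drop ((((rootQ.upH 1).upH 0).lowH 0).lowH 0) = true := by
  decide +kernel

set_option maxRecDepth 100000 in
def hUD_3 : checkT (eUp NcC gdC 2 2 0 (-1) 0 UDL chX1 chX2 chX3) regB [66, 66, 1, 1] (.node 0 .drop (.node 0 (.node 0 .drop (.node 1 .drop (.node 1 (.node 0 .drop .leaf) .leaf))) .leaf)) ((((rootQ.upH 1).upH 0).lowH 0).upH 0) = true := by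
  decide +kernel

set_option maxRecDepth 100000 in
def hUD_4 : checkT (eUp NcC gdC 2 2 0 (-1) 0 UDL chX1 chX2 chX3) regB [66, 66, 1, 1] .leaf (((rootQ.upH 1).upH 0).upH 0) = true := by
  decide +kernel

set_option maxRecDepth 100000 in
def hLA_0 : checkT (eLo NcC gdC 1 1 0 0 (-1) LAL chX1 chX2 chX3) regB [66, 66, 1, 1] (.node 0 .drop (.node 0 .leaf .leaf)) (rootQ.lowH 1) = true := by
  decide +kernel

end Vale.Agent.Lib.P154Q.Child
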