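import Vale.Agent.Lib.P154Q.Net

/-!
Coefficients of the polynomial bounds on the channel image.
-/

namespace Vale.Agent.Lib.P154Q.Child

open Vale.Agent.Lib.P154M Vale.Agent.Lib.P154Q
open Vale.Agent.Lib.Common.Kron Vale.Agent.Lib.Common.Kron.PE

/-- Common denominator. -/
def gdC : ℕ := 10000000000

/-- Weight. -/
def NcC : ℕ := 13

/-- Coefficients. -/
def UBL : L2 := [(-273309347, 5, 1), (-1841073039, 2, 3), (14314608, 6, 0), (2309497515, 3, 2), (5850796219, 0, 4), (380950545, 4, 1), (2455209659, 1, 3), (-2282604, 5, 0), (-686746816, 2, 2), (-426483315, 3, 1), (-1290733683, 0, 3), (25219592, 4, 0), (965594839, 1, 2), (-337672209, 2, 1), (63786390, 3, 0), (893889849, 0, 2), (-907599558, 1, 1), (229376168, 2, 0), (-2640000000, 0, 1), (1400000000, 1, 0)]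

/-- Coefficients. -/
def UDL : L2 := [(-140538557, 5, 1), (-917632399, 2, 3), (7276522, 6, 0), (1220811637, 3, 2), (2615204487, 0, 4), (189824887, 4, 1), (1034763769, 1, 3), (342051, 5, 0), (-377432562, 2, 2), (-230573568, 3, 1), (-617960655, 0, 3), (14643973, 4, 0), (582626000, 1, 2), (-213198850, 2, 1), (42018088, 3, 0), (532266239, 0, 2), (-589002994, 1, 1), (164027181, 2, 0), (-1800000000, 0, 1), (1200000000, 1, 0)]

/-- Coefficients. -/
def LAL : L2 := [(-655269284, 5, 1), (-14356849447, 2, 3), (-12451157, 6, 0), (-2579162452, 3, 2), (-3089086719, 0, 4), (464271546, 4, 1), (6542621797, 1, 3), (24602401, 5, 0), (2877988263, 2, 2), (-365881328, 3, 1), (-1570801657, 0, 3), (19741546, 4, 0), (338288458, 1, 2), (-414305648, 2, 1), (73136865, 3, 0), (1077593145, 0, 2), (-1043868145, 1, 1), (262628986, 2, 0), (-3120000000, 0, 1), (1600000000, 1, 0)]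


end Vale.Agent.Lib.P154Q.Child
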