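import Vale.Agent.Lib.P154Q.Child.Ck0
import Vale.Agent.Lib.P154Q.Child.Ck1
import Vale.Agent.Lib.P154Q.Child.Ck2

/-!
The polynomial bounds on the channel image, assembled.
-/

namespace Vale.Agent.Lib.P154Q.Child

open Vale.Agent.Lib.P154M Vale.Agent.Lib.P154Q
open Vale.Agent.Lib.Common.Kron Vale.Agent.Lib.Common.Kron.PE

theorem hUBT : checkT (eUp NcC gdC 1 1 (-1) 0 0 UBL chX1 chX2 chX3) regB [66, 66, 1, 1] (.node 1 (.node 0 .drop (.node 0 (.node 0 .drop (.node 0 .drop (.node 1 .drop (.node 0 .drop .leaf)))) .leaf)) (.node 0 .drop (.node 0 (.node 0 .drop (.node 0 .drop (.node 0 (.node 0 .drop (.node 1 .drop (.node 1 (.node 0 .drop .leaf) .leaf))) .leaf))) .leaf))) rootQ = true :=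
  (checkT_node hUB_0 (checkT_node hUB_1 (checkT_node (checkT_node hUB_2 hUB_3) hUB_4)))

theorem hUDT : checkT (eUp NcC gdC 2 2 0 (-1) 0 UDL chX1 chX2 chX3) regB [66, 66, 1, 1] (.node 1 (.node 0 .drop (.node 0 (.node 0 .drop (.node 0 .drop (.node 1 .drop (.node 0 .drop .leaf)))) .leaf)) (.node 0 .drop (.node 0 (.node 0 .drop (.node 0 .drop (.node 0 (.node 0 .drop (.node 1 .drop (.node 1 (.node 0 .drop .leaf) .leaf))) .leaf))) .leaf))) rootQ = true :=
  (checkT_node hUD_0 (checkT_node hUD_1 (checkT_node (checkT_node hUD_2 hUD_3) hUD_4)))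

theorem hLAT : checkT (eLo NcC gdC 1 1 0 0 (-1) LAL chX1 chX2 chX3) regB [66, 66, 1, 1] (.node 1 (.node 0 .drop (.node 0 .leaf .leaf)) (.node 0 .drop (.node 0 .leaf .leaf))) rootQ = true :=
  (checkT_node hLA_0 hLA_1)

end Vale.Agent.Lib.P154Q.Child
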